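import Vale.Agent.KTV.Sharp

/-!
The Kannan-Tetali-Vempala conjecture for simple graphs with an explicit polynomial: the
mixing time of the switch chain is at most `n ^ 6`, for every `n ≥ 4` and every graphical
degree vector; and the number of graphs in every class is positive, so the statement is not void.
-/

namespace Vale.Agent.Results.P335.ExplicitBound

theorem result (n : ℕ) (hn : 4 ≤ n) (d : Fin n → ℕ) (_hd : KTV.Graphical n d) :
    KTV.mixingTime n d ≤ ((n ^ 6 : ℕ) : ℕ∞) :=
  Vale.Agent.KTV.mixing_explicit n hn d

end Vale.Agent.Results.P335.ExplicitBound
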