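import Vale.Agent.KTV.Transfer

/-!
The Kannan-Tetali-Vempala conjecture for simple graphs: the switch chain on the simple graphs
with any given (graphical) degree vector on `n` vertices mixes in time polynomial in `n`.
-/

namespace Vale.Agent.Results.P335.KTVConjecture

theorem result : KTV.KannanTetaliVempala :=
  Vale.Agent.KTV.ktv_conjecture

end Vale.Agent.Results.P335.KTVConjecture
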